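import Vale.Agent.P032.Words.TEngine

/-!
# Words on a circle: renaming the letters

A word with exact contacts (`TW`) stays one when its letters are renamed by a bijection which keeps the
legal hexagons and the mark pairs.
-/

namespace Vale.Agent.P032.Words

open Set Filter Topology

variable {L L' : Type}

/-- Renaming: the letter `l` of the new word is the letter `σ l` of the old one. -/
theorem TW.relabel {X : L → Set ℝ} {Leg : (Fin 6 → L) → Prop} {Mk : L → L → Prop} {lam : ℝ → L}
    (w : TW X Leg Mk lam) (σ : L' ≃ L) (Leg' : (Fin 6 → L') → Prop) (Mk' : L' → L' → Prop)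
    (hLeg : ∀ h, Leg' h ↔ Leg (fun k => σ (h k))) (hMk : ∀ a b, Mk' a b → Mk (σ a) (σ b)) :
    TW (fun l => X (σ l)) Leg' Mk' (fun u => σ.symm (lam u)) where
  closed := fun l => w.closed _
  per := fun l u => w.per _ u
  mem := fun u => by
    show u ∈ X (σ (σ.symm (lam u)))
    rw [σ.apply_symm_apply]
    exact w.mem u
  lper := fun u => by
    show σ.symm (lam (u + 6)) = σ.symm (lam u)
    rw [w.lper u]
  conn := by
    intro u h h' hh hh' hl hl' hne
    obtain ⟨k, hk, hl2⟩ := w.conn u (fun k => σ (h k)) (fun k => σ (h' k)) hh hh'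
      ((hLeg _).1 hl) ((hLeg _).1 hl') (fun he => hne (by
        funext k
        exact σ.injective (congrFun he k)))
    refine ⟨k, fun he => hk (by show σ (h k) = σ (h' k); rw [he]), (hLeg _).2 ?_⟩
    have e : (fun j => σ (Function.update h k (h' k) j)) =
        Function.update (fun k => σ (h k)) k (σ (h' k)) := by
      funext j
      by_cases hj : j = k
      · subst hj
        rw [Function.update_self, Function.update_self]
      · rw [Function.update_of_ne hj, Function.update_of_ne hj]
    rw [e]
    exact hl2
  mks := by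
    intro u h hh
    refine (hLeg h).2 (w.mks u _ fun k => ?_)
    rcases hh k with h1 | ⟨a, b, hab, ha, hb, hc⟩
    · left
      show σ (h k) = _
      rw [h1]
      exact σ.apply_symm_apply _
    · right
      refine ⟨σ a, σ b, hMk a b hab, ha, hb, ?_⟩
      rcases hc with h2 | h2
      · exact Or.inl (congrArg σ h2)
      · exact Or.inr (congrArg σ h2)

/-- Marks are renamed as well. -/
theorem Mark.relabel {X : L → Set ℝ} {σ : L' ≃ L} {a b : L'} {V : ℝ}
    (h : Mark X (σ a) (σ b) V) : Mark (fun l => X (σ l)) a b V where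
  mem_a := h.mem_a
  mem_b := h.mem_b
  only := fun l hl => by
    rcases h.only (σ l) hl with h1 | h1
    · exact Or.inl (σ.injective h1)
    · exact Or.inr (σ.injective h1)
  left := h.left
  right := h.right

/-- Reflection of the time: `u ↦ -u`. -/
theorem TW.reflect {X : L → Set ℝ} {Leg : (Fin 6 → L) → Prop} {Mk : L → L → Prop} {lam : ℝ → L}
    (w : TW X Leg Mk lam) (hLeg : ∀ h, Leg h ↔ Leg (fun k => h (-k))) :
    TW (fun l => {u | -u ∈ X l}) Leg Mk (fun u => lam (-u)) := by
  have hper : ∀ l u, u - 6 ∈ X l ↔ u ∈ X l := fun l u => by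
    rw [← w.per l (u - 6)]; ring_nf
  have hlper : ∀ u, lam (u - 6) = lam u := fun u => by
    rw [← w.lper (u - 6)]; ring_nf
  -- the position `-k` at the time `-u` is the position `k` at the time `u`
  have hpos : ∀ (u : ℝ) (k : Fin 6), (-u + ((-k : Fin 6).val : ℝ) = -(u + (k.val : ℝ))) ∨
      (-u + ((-k : Fin 6).val : ℝ) - 6 = -(u + (k.val : ℝ))) := by
    intro u k
    fin_cases k
    · left; simp
    all_goals
      right
      norm_num [Fin.val_neg']
      try ring
  have hX : ∀ (l : L) (u : ℝ) (k : Fin 6),
      -u + ((-k : Fin 6).val : ℝ) ∈ X l ↔ -(u + (k.val : ℝ)) ∈ X l := by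
    intro l u k
    rcases hpos u k with h | h
    · rw [h]
    · rw [← h, hper]
  have hlam : ∀ (u : ℝ) (k : Fin 6),
      lam (-u + ((-k : Fin 6).val : ℝ)) = lam (-(u + (k.val : ℝ))) := by
    intro u k
    rcases hpos u k with h | h
    · rw [h]
    · rw [← h, hlper]
  refine ⟨fun l => (w.closed l).preimage continuous_neg, ?_, fun u => w.mem _, ?_, ?_, ?_⟩
  · intro l u
    show -(u + 6) ∈ X l ↔ -u ∈ X l
    have : -(u + 6) = -u - 6 := by ring
    rw [this, hper]
  · intro u
    show lam (-(u + 6)) = lam (-u)
    have : -(u + 6) = -u - 6 := by ring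
    rw [this, hlper]
  · intro u h h' hh hh' hl hl' hne
    have hneg : ∀ k : Fin 6, - -k = k := fun k => neg_neg k
    obtain ⟨k, hk, hl2⟩ := w.conn (-u) (fun k => h (-k)) (fun k => h' (-k))
      (fun k => by
        have := hh (-k)
        have h2 := (hX (h (-k)) u (-k)).2 this
        rwa [hneg] at h2)
      (fun k => by
        have := hh' (-k)
        have h2 := (hX (h' (-k)) u (-k)).2 this
        rwa [hneg] at h2)
      ((hLeg h).1 hl) ((hLeg h').1 hl') (fun he => hne (by
        funext k
        have := congrFun he (-k)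
        simpa using this))
    refine ⟨-k, hk, (hLeg _).2 ?_⟩
    have e : (fun j => Function.update h (-k) (h' (-k)) (-j)) =
        Function.update (fun k => h (-k)) k (h' (-k)) := by
      funext j
      by_cases hj : j = k
      · subst hj
        rw [Function.update_self, Function.update_self]
      · rw [Function.update_of_ne hj, Function.update_of_ne (fun he => hj (neg_injective he))]
    rw [e]
    exact hl2
  · intro u h hh
    refine (hLeg h).2 (w.mks (-u) _ fun k => ?_)
    have e1 : -u + (k.val : ℝ) = -u + ((- -k : Fin 6).val : ℝ) := by rw [neg_neg]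
    rcases hh (-k) with h1 | ⟨a, b, hab, ha, hb, hc⟩
    · left
      rw [e1, hlam]
      exact h1
    · right
      refine ⟨a, b, hab, ?_, ?_, hc⟩
      · rw [e1, hX]; exact ha
      · rw [e1, hX]; exact hb

/-- Marks under the reflection of the time. -/
theorem Mark.reflect {X : L → Set ℝ} {a b : L} {V : ℝ} (h : Mark X a b V) :
    Mark (fun l => {u | -u ∈ X l}) b a (-V) where
  mem_a := by show - -V ∈ X b; rw [neg_neg]; exact h.mem_b
  mem_b := by show - -V ∈ X a; rw [neg_neg]; exact h.mem_a
  only := fun l hl => by
    have h1 : - -V ∈ X l := hl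
    rw [neg_neg] at h1
    exact (h.only l h1).symm
  left := by
    have h1 : Tendsto (fun u : ℝ => -u) (𝓝[<] (-V)) (𝓝[>] V) := by
      refine tendsto_nhdsWithin_of_tendsto_nhds_of_eventually_within _ ?_ ?_
      · have h2 : Tendsto (fun u : ℝ => -u) (𝓝 (-V)) (𝓝 (- -V)) := (continuous_neg).tendsto _
        rw [neg_neg] at h2
        exact h2.mono_left nhdsWithin_le_nhds
      · filter_upwards [self_mem_nhdsWithin] with u hu
        have hu' : u < -V := hu
        show V < -u
        linarith
    exact h1.eventually h.right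
  right := by
    have h1 : Tendsto (fun u : ℝ => -u) (𝓝[>] (-V)) (𝓝[<] V) := by
      refine tendsto_nhdsWithin_of_tendsto_nhds_of_eventually_within _ ?_ ?_
      · have h2 : Tendsto (fun u : ℝ => -u) (𝓝 (-V)) (𝓝 (- -V)) := (continuous_neg).tendsto _
        rw [neg_neg] at h2
        exact h2.mono_left nhdsWithin_le_nhds
      · filter_upwards [self_mem_nhdsWithin] with u hu
        have hu' : -V < u := hu
        show -u < V
        linarith
    exact h1.eventually h.left

end Vale.Agent.P032.Words
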